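import Vale.Agent.P106.Main
import Vale.Agent.P106.Glue

open MeasureTheory Set
open scoped SchwartzMap

namespace Vale.Agent.Results.P106.Axial

open Vale.Agent.P106

theorem result (p α : ℝ) (hp : 2 < p) (hα : max 0 (1 - 3 / p) < α) : ∃ C : ℝ,
    (∀ (k : ℤ) (f : 𝓢(St.E3, ℂ)),
      (∀ (θ : ℝ) (x : St.E3), f (St.rot θ x) = Complex.exp (k * θ * Complex.I) * f x) →
      eLpNorm (St.U f) (ENNReal.ofReal p) (volume.restrict (univ ×ˢ Icc (1 : ℝ) 2)) ≤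
        ENNReal.ofReal (C * (1 + |(k : ℝ)|) ^ 2) * eLpNorm (St.J α f) (ENNReal.ofReal p) volume) ∧
    ∀ f : 𝓢(St.E3, ℂ),
      eLpNorm (St.U f) (ENNReal.ofReal p) (volume.restrict (univ ×ˢ Icc (1 : ℝ) 2)) ≤
        ENNReal.ofReal C * (eLpNorm (St.J α f) (ENNReal.ofReal p) volume +
          eLpNorm (St.ang^[4] (St.J α f)) (ENNReal.ofReal p) volume) := by
  obtain ⟨C₁, h₁, H₁⟩ := main_eqv hp.le hα
  obtain ⟨C₂, h₂, H₂⟩ := main_ang hp.le hα
  refine ⟨C₁ + C₂, fun k f hf => ?_, fun f => ?_⟩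
  · rw [eLp_U, J_eq]
    refine (H₁ k f hf).trans (mul_le_mul_left (ENNReal.ofReal_le_ofReal ?_) _)
    have : 0 ≤ C₂ * (1 + |(k : ℝ)|) ^ 2 := by positivity
    linarith
  · rw [eLp_U, J_eq]
    exact (H₂ f).trans (mul_le_mul_left (ENNReal.ofReal_le_ofReal (by linarith)) _)

end Vale.Agent.Results.P106.Axial
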